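import Vale.Agent.Lib.P154GW.Main

/-!
# The merge inequality with Lagrange terms

The third power sum `p3T` of the centred message has nonnegative expectation on every fixed tree
(ferromagnetic channel).  So the merge inequality may be weakened by terms that are a nonnegative
quantity times `p3T` of one of the two independent messages.
-/

open Finset

namespace Vale.Agent.Lib.P154GW

open Vale.Agent.Lib.P154

/-- The third power sum of a triple. -/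
noncomputable def p3T (c : Tp) : ℝ := c.x ^ 3 + c.y ^ 3 + c.z ^ 3

/-- A merge inequality with a general remainder. -/
def MergeR (ψp ψ0 Y : Tp → ℝ) (R : Tp → Tp → ℝ) (la lb : ℝ) : Prop :=
  ∀ a b, InSx la a → InSx lb b →
    avg6 (fun b' => (1 + 3 * sF a b') * ψp (wF a b')) b ≤ ψ0 a + Y b - R a b

/-- One message against one message, all rearrangements. -/
lemma merge_ptR {ψp ψ0 Y : Tp → ℝ} {R : Tp → Tp → ℝ} {la lb : ℝ} (hM : MergeR ψp ψ0 Y R la lb)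
    (hla : 0 ≤ la) (hla1 : la ≤ 1) (hlb0 : 0 ≤ lb) (hlb : lb < 1) {x y : W3} (hx : NN x) (hy : NN y)
    (hxd : 0 < M3 x → InSx la (cen x)) (hyd : 0 < M3 y → InSx lb (cen y)) :
    avgF (fun y' => GG ψp (mrg x y')) y ≤
      M3 y * GG ψ0 x + M3 x * GG Y y - M3 x * M3 y * R (cen x) (cen y) := by
  have hperm : ∀ σ : Equiv.Perm (Fin 3), NN (y ∘ σ) := fun σ i => hy (σ i)
  rcases (M3_nonneg hx).eq_or_lt with h0 | hxp
  · have e : ∀ y', NN y' → GG ψp (mrg x y') = 0 := fun y' hy' =>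
      mrg_zero_M3 hx hy' (Or.inl h0.symm) ψp
    have g : ∀ ψ : Tp → ℝ, GG ψ x = 0 := fun ψ => by simp [GG, ← h0]
    simp only [avgF]
    rw [e y hy, e _ (hperm s1), e _ (hperm s2), e _ (hperm s3), e _ (hperm s4), e _ (hperm s5), g ψ0, ← h0]
    simp
  rcases (M3_nonneg hy).eq_or_lt with h0 | hyp
  · have e : ∀ y', M3 y' = 0 → NN y' → GG ψp (mrg x y') = 0 := fun y' h' hy' =>
      mrg_zero_M3 hx hy' (Or.inr h') ψp
    have g : ∀ ψ : Tp → ℝ, GG ψ y = 0 := fun ψ => by simp [GG, ← h0]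
    simp only [avgF]
    rw [e y h0.symm hy, e _ (by rw [M3_s1]; exact h0.symm) (hperm s1),
      e _ (by rw [M3_s2]; exact h0.symm) (hperm s2), e _ (by rw [M3_s3]; exact h0.symm) (hperm s3),
      e _ (by rw [M3_s4]; exact h0.symm) (hperm s4), e _ (by rw [M3_s5]; exact h0.symm) (hperm s5),
      g Y, ← h0]
    simp
  have ha := hxd hxp
  have hb := hyd hyp
  set a := cen x with ha'
  set b := cen y with hb'
  have hNpos : ∀ b', Orb b b' → 0 < 1 + 3 * sF a b' := by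
    intro b' hO
    obtain ⟨r1, _⟩ := sF_range ha (hO.inSx hb) hla hlb0
    have : la * lb < 1 := by nlinarith
    linarith
  have key := hM a b ha hb
  have hGp : ∀ (σ : W3) (b' : Tp), M3 σ = M3 y → cen σ = b' → Orb b b' →
      GG ψp (mrg x σ) = M3 x * M3 y * ((1 + 3 * sF a b') * ψp (wF a b')) := by
    intro σ b' h1 h2 hO
    have hσ : 0 < M3 σ := by rw [h1]; exact hyp
    have := GG_mrg ψp hxp hσ (by rw [h2]; exact hNpos b' hO)
    rw [this, h1, h2]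
  have e0 := hGp y b rfl rfl (Or.inl rfl)
  have e1 := hGp (y ∘ s1) b.r1 (M3_s1 y) (cen_s1 y) (by simp [Orb])
  have e2 := hGp (y ∘ s2) b.r2 (M3_s2 y) (cen_s2 y) (by simp [Orb])
  have e3 := hGp (y ∘ s3) b.r3 (M3_s3 y) (cen_s3 y) (by simp [Orb])
  have e4 := hGp (y ∘ s4) b.r4 (M3_s4 y) (cen_s4 y) (by simp [Orb])
  have e5 := hGp (y ∘ s5) b.r5 (M3_s5 y) (cen_s5 y) (by simp [Orb])
  simp only [avgF]
  rw [e0, e1, e2, e3, e4, e5]
  have hAB : 0 ≤ M3 x * M3 y := by positivity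
  have key2 := mul_le_mul_of_nonneg_left key hAB
  simp only [avg6] at key2
  simp only [GG]
  rw [← ha', ← hb']
  nlinarith [key2]

/-- The merge inequality for finite families, with a general remainder. -/
theorem merge_famR {A Ω : Type} [Fintype A] [Fintype Ω] {x : A → W3} {y : Ω → W3} (hy : Fam y)
    (hx : ∀ η, NN (x η)) {ψp ψ0 Y : Tp → ℝ} {R : Tp → Tp → ℝ} {la lb : ℝ}
    (hM : MergeR ψp ψ0 Y R la lb)
    (hla : 0 ≤ la) (hla1 : la ≤ 1) (hlb0 : 0 ≤ lb) (hlb : lb < 1)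
    (hxd : ∀ η, 0 < M3 (x η) → InSx la (cen (x η))) (hyd : ∀ ξ, 0 < M3 (y ξ) → InSx lb (cen (y ξ))) :
    ∑ η, ∑ ξ, GG ψp (mrg (x η) (y ξ)) ≤
      ∑ η, GG ψ0 (x η) + (∑ η, M3 (x η)) * ∑ ξ, GG Y (y ξ) -
        ∑ η, ∑ ξ, M3 (x η) * M3 (y ξ) * R (cen (x η)) (cen (y ξ)) := by
  have h1 : ∀ η, ∑ ξ, GG ψp (mrg (x η) (y ξ)) ≤
      GG ψ0 (x η) + M3 (x η) * ∑ ξ, GG Y (y ξ) -
        ∑ ξ, M3 (x η) * M3 (y ξ) * R (cen (x η)) (cen (y ξ)) := by
    intro η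
    rw [hy.avg (fun y' => GG ψp (mrg (x η) y'))]
    calc ∑ ξ, avgF (fun y' => GG ψp (mrg (x η) y')) (y ξ)
        ≤ ∑ ξ, (M3 (y ξ) * GG ψ0 (x η) + M3 (x η) * GG Y (y ξ) -
            M3 (x η) * M3 (y ξ) * R (cen (x η)) (cen (y ξ))) :=
          Finset.sum_le_sum (fun ξ _ => merge_ptR hM hla hla1 hlb0 hlb (hx η) (hy.nn ξ) (hxd η) (hyd ξ))
      _ = _ := by
          rw [Finset.sum_sub_distrib, Finset.sum_add_distrib, ← Finset.sum_mul, hy.mass, one_mul,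
            ← Finset.mul_sum]
  calc ∑ η, ∑ ξ, GG ψp (mrg (x η) (y ξ))
      ≤ ∑ η, (GG ψ0 (x η) + M3 (x η) * ∑ ξ, GG Y (y ξ) -
          ∑ ξ, M3 (x η) * M3 (y ξ) * R (cen (x η)) (cen (y ξ))) :=
        Finset.sum_le_sum (fun η _ => h1 η)
    _ = _ := by
        rw [Finset.sum_sub_distrib, Finset.sum_add_distrib, ← Finset.sum_mul]

/-- A product remainder sums to a product. -/
lemma sum_product {A Ω : Type} [Fintype A] [Fintype Ω] (x : A → W3) (y : Ω → W3) (u v : Tp → ℝ) :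
    ∑ η, ∑ ξ, M3 (x η) * M3 (y ξ) * (u (cen (x η)) * v (cen (y ξ))) =
      (∑ η, GG u (x η)) * ∑ ξ, GG v (y ξ) := by
  rw [Finset.sum_mul_sum]
  apply Finset.sum_congr rfl
  intro η _
  apply Finset.sum_congr rfl
  intro ξ _
  simp only [GG]
  ring

/-- The data of the Lagrange argument. -/
structure LagData (ψ Y G H : Tp → ℝ) (lb t κ : ℝ) : Prop where
  /-- The merge inequality with Lagrange terms. -/
  merge : ∀ a b, InSx 1 a → InSx lb b →
    avg6 (fun b' => (1 + 3 * sF a b') * ψ (wF a b')) b ≤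
      ψ a + Y b - t * (p2T a * p2T b) - G b * p3T a - H a * p3T b - κ * (p3T a * p3T b)
  /-- The invariant. -/
  inv : ∀ a b, InSx 1 a → InSx lb b →
    p3T a + (1 - 3 / 2 * p2T a) ^ 2 * p3T b ≤
      avg6 (fun b' => (1 + 3 * sF a b') * p3T (wF a b')) b
  G0 : ∀ b, InSx lb b → 0 ≤ G b
  H0 : ∀ a, InSx 1 a → 0 ≤ H a
  κ0 : 0 ≤ κ
  t0 : 0 ≤ t
  lb0 : 0 ≤ lb
  lb1 : lb < 1
  zero : ψ ⟨0, 0, 0⟩ = 0

variable {ψ Y G H : Tp → ℝ} {lb t κ : ℝ}

/-- The remainder of the merge inequality. -/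
noncomputable def RR (G H : Tp → ℝ) (t κ : ℝ) (a b : Tp) : ℝ :=
  t * (p2T a * p2T b) + G b * p3T a + H a * p3T b + κ * (p3T a * p3T b)

lemma LagData.mergeR (hD : LagData ψ Y G H lb t κ) : MergeR ψ ψ Y (RR G H t κ) 1 lb := by
  intro a b ha hb
  have := hD.merge a b ha hb
  simp only [RR]
  linarith

lemma LagData.invR (hD : LagData ψ Y G H lb t κ) :
    MergeR (fun c => -p3T c) (fun c => -p3T c) (fun _ => 0)
      (fun a b => (1 - 3 / 2 * p2T a) ^ 2 * p3T b) 1 lb := by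
  intro a b ha hb
  have := hD.inv a b ha hb
  simp only [avg6] at this ⊢
  linarith

section families

variable {A Ω : Type} [Fintype A] [Fintype Ω]

/-- The sum of a remainder over two families. -/
lemma sum_RR (x : A → W3) (y : Ω → W3) :
    ∑ η, ∑ ξ, M3 (x η) * M3 (y ξ) * RR G H t κ (cen (x η)) (cen (y ξ)) =
      t * ((∑ η, GG p2T (x η)) * ∑ ξ, GG p2T (y ξ)) + (∑ η, GG p3T (x η)) * ∑ ξ, GG G (y ξ) +
        (∑ η, GG H (x η)) * ∑ ξ, GG p3T (y ξ) +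
          κ * ((∑ η, GG p3T (x η)) * ∑ ξ, GG p3T (y ξ)) := by
  rw [← sum_product x y p2T p2T, ← sum_product x y p3T G, ← sum_product x y H p3T,
    ← sum_product x y p3T p3T, Finset.mul_sum, Finset.mul_sum, ← Finset.sum_add_distrib,
    ← Finset.sum_add_distrib, ← Finset.sum_add_distrib]
  apply Finset.sum_congr rfl
  intro η _
  rw [Finset.mul_sum, Finset.mul_sum, ← Finset.sum_add_distrib, ← Finset.sum_add_distrib,
    ← Finset.sum_add_distrib]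
  apply Finset.sum_congr rfl
  intro ξ _
  simp only [RR]
  ring

/-- One step of the recursion for the invariant. -/
lemma inv_step (hD : LagData ψ Y G H lb t κ) {x : A → W3} {y : Ω → W3} (hy : Fam y)
    (hx : ∀ η, NN (x η)) (hxd : ∀ η, 0 < M3 (x η) → InSx 1 (cen (x η)))
    (hyd : ∀ ξ, 0 < M3 (y ξ) → InSx lb (cen (y ξ)))
    (hpx : 0 ≤ ∑ η, GG p3T (x η)) (hpy : 0 ≤ ∑ ξ, GG p3T (y ξ)) :
    0 ≤ ∑ η, ∑ ξ, GG p3T (mrg (x η) (y ξ)) := by
  have key := merge_famR (ψp := fun c => -p3T c) (ψ0 := fun c => -p3T c) (Y := fun _ => 0)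
    (R := fun a b => (1 - 3 / 2 * p2T a) ^ 2 * p3T b) hy hx hD.invR zero_le_one le_rfl hD.lb0 hD.lb1
    hxd hyd
  have e1 : ∀ (c : W3), GG (fun c => -p3T c) c = - GG p3T c := fun c => by simp [GG]
  have e0 : ∀ (c : W3), GG (fun _ => (0 : ℝ)) c = 0 := fun c => by simp [GG]
  have L1 : ∑ η, ∑ ξ, GG (fun c => -p3T c) (mrg (x η) (y ξ)) = -∑ η, ∑ ξ, GG p3T (mrg (x η) (y ξ)) := by
    simp only [e1, Finset.sum_neg_distrib]
  have L2 : ∑ η, GG (fun c => -p3T c) (x η) = -∑ η, GG p3T (x η) := by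
    simp only [e1, Finset.sum_neg_distrib]
  have L3 : ∑ ξ, GG (fun _ => (0 : ℝ)) (y ξ) = 0 := by
    simp only [e0, Finset.sum_const_zero]
  have e2 : ∑ η, ∑ ξ, M3 (x η) * M3 (y ξ) * ((1 - 3 / 2 * p2T (cen (x η))) ^ 2 * p3T (cen (y ξ))) =
      (∑ η, GG (fun a => (1 - 3 / 2 * p2T a) ^ 2) (x η)) * ∑ ξ, GG p3T (y ξ) :=
    sum_product x y (fun a => (1 - 3 / 2 * p2T a) ^ 2) p3T
  rw [L1, L2, L3, e2, mul_zero, add_zero] at key
  have hq : 0 ≤ ∑ η, GG (fun a => (1 - 3 / 2 * p2T a) ^ 2) (x η) :=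
    Finset.sum_nonneg fun η _ => GG_nonneg_of (fun c => sq_nonneg _) (hx η)
  have h3 := mul_nonneg hq hpy
  linarith

/-- One step of the recursion for the potential. -/
lemma psi_step (hD : LagData ψ Y G H lb t κ) {x : A → W3} {y : Ω → W3} (hy : Fam y)
    (hx : ∀ η, NN (x η)) (hxd : ∀ η, 0 < M3 (x η) → InSx 1 (cen (x η)))
    (hyd : ∀ ξ, 0 < M3 (y ξ) → InSx lb (cen (y ξ)))
    (hpx : 0 ≤ ∑ η, GG p3T (x η)) (hpy : 0 ≤ ∑ ξ, GG p3T (y ξ)) (hmx : ∑ η, M3 (x η) = 1) :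
    ∑ η, ∑ ξ, GG ψ (mrg (x η) (y ξ)) ≤ ∑ η, GG ψ (x η) + ∑ ξ, GG Y (y ξ)
      - t * ((∑ η, GG p2T (x η)) * ∑ ξ, GG p2T (y ξ)) := by
  have key := merge_famR hy hx hD.mergeR zero_le_one le_rfl hD.lb0 hD.lb1 hxd hyd
  rw [sum_RR, hmx, one_mul] at key
  have hG : 0 ≤ ∑ ξ, GG G (y ξ) :=
    Finset.sum_nonneg fun ξ _ => GG_nonneg_on (hy.nn ξ) (hyd ξ) hD.G0
  have hH : 0 ≤ ∑ η, GG H (x η) :=
    Finset.sum_nonneg fun η _ => GG_nonneg_on (hx η) (hxd η) hD.H0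
  have h1 := mul_nonneg hpx hG
  have h2 := mul_nonneg hH hpy
  have h3 := mul_nonneg hD.κ0 (mul_nonneg hpx hpy)
  linarith

end families

/-- The trivial family. -/
noncomputable def uni : Unit → W3 := fun _ _ => 1 / 3

lemma M3_uni (u : Unit) : M3 (uni u) = 1 := by
  simp only [M3, uni]
  norm_num

lemma cen_uni (u : Unit) : cen (uni u) = ⟨0, 0, 0⟩ := by
  simp only [cen, M3_uni, uni]
  ext <;> norm_num

lemma mrg_uni (u : Unit) (y : W3) : mrg (uni u) y = y := by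
  funext i
  simp only [mrg, uni]
  ring

lemma uni_inSx : InSx 1 (⟨0, 0, 0⟩ : Tp) :=
  ⟨by simp [Tp.ZS], by norm_num, by norm_num, by norm_num⟩

/-- The potential is below `Y`, in the mean over a family. -/
lemma psi_le_Y_fam (hD : LagData ψ Y G H lb t κ) {Ω : Type} [Fintype Ω] {y : Ω → W3} (hy : Fam y)
    (hyd : ∀ ξ, 0 < M3 (y ξ) → InSx lb (cen (y ξ))) (hpy : 0 ≤ ∑ ξ, GG p3T (y ξ)) :
    ∑ ξ, GG ψ (y ξ) ≤ ∑ ξ, GG Y (y ξ) := by
  have hx : ∀ η, NN (uni η) := fun η i => by simp [uni]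
  have hxd : ∀ η, 0 < M3 (uni η) → InSx 1 (cen (uni η)) := fun η _ => by
    rw [cen_uni]; exact uni_inSx
  have hpx : 0 ≤ ∑ η, GG p3T (uni η) := by
    simp [GG, M3_uni, cen_uni, p3T]
  have hmx : ∑ η, M3 (uni η) = 1 := by simp [M3_uni]
  have key := psi_step hD hy hx hxd hyd hpx hpy hmx
  simp only [mrg_uni] at key
  have h1 : ∑ η, GG ψ (uni η) = 0 := by
    simp [GG, M3_uni, cen_uni, hD.zero]
  have h2 : ∑ η, GG p2T (uni η) = 0 := by
    simp [GG, M3_uni, cen_uni, p2T]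
  rw [h1, h2] at key
  simpa using key

/-- The recursion along the children of a vertex. -/
theorem merge_allL (hD : LagData ψ Y G H lb t κ) :
    ∀ (k : ℕ) (Ω : Fin k → Type) [∀ c, Fintype (Ω c)] (y : ∀ c, Ω c → W3),
      (∀ c, Fam (y c)) → (∀ c ξ, 0 < M3 (y c ξ) → InSx lb (cen (y c ξ))) →
      (∀ c, 0 ≤ ∑ ξ, GG p3T (y c ξ)) →
      0 ≤ ∑ ω : (∀ c, Ω c), GG p3T (mergeAll y ω) ∧
        ∑ ω : (∀ c, Ω c), GG ψ (mergeAll y ω) ≤ ∑ c, ∑ ξ, GG Y (y c ξ) := by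
  intro k
  induction k with
  | zero =>
    intro Ω _ y _ _ _
    simp only [Finset.univ_eq_empty, Finset.sum_empty, Fintype.sum_unique]
    simp only [GG, mergeAll, M3, cen, Fin.prod_univ_zero, mul_one]
    norm_num
    constructor
    · simp [p3T]
    · exact le_of_eq hD.zero
  | succ k ih =>
    intro Ω _ y hy hyd hyp
    rw [sum_snoc, sum_snoc]
    have e : ∀ (η : ∀ c : Fin k, Ω c.castSucc) (a : Ω (Fin.last k)),
        mergeAll y (Fin.snoc (α := Ω) η a)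
          = mrg (mergeAll (Ω := fun c : Fin k => Ω c.castSucc) (fun c => y c.castSucc) η)
              (y (Fin.last k) a) := by
      intro η a
      rw [mergeAll_succ]
      simp only [Fin.snoc_castSucc, Fin.snoc_last]
    simp only [e]
    have hnn : ∀ (c : Fin k) ξ, NN (y c.castSucc ξ) := fun c ξ => (hy c.castSucc).nn ξ
    obtain ⟨ih1, ih2⟩ := ih (fun c : Fin k => Ω c.castSucc) (fun c : Fin k => y c.castSucc)
      (fun c : Fin k => hy c.castSucc) (fun (c : Fin k) => hyd c.castSucc)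
      (fun (c : Fin k) => hyp c.castSucc)
    have hmass := mergeAll_mass (Ω := fun c : Fin k => Ω c.castSucc) (y := fun c : Fin k => y c.castSucc)
      (fun c : Fin k => hy c.castSucc)
    have hxd := fun η (h : 0 < M3 (mergeAll (Ω := fun c : Fin k => Ω c.castSucc)
        (fun c : Fin k => y c.castSucc) η)) => cen_inSx (mergeAll_nn hnn η) h
    refine ⟨inv_step hD (hy (Fin.last k)) (fun η => mergeAll_nn hnn η) hxd (hyd (Fin.last k)) ih1
      (hyp (Fin.last k)), ?_⟩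
    have key := psi_step hD (hy (Fin.last k)) (fun η => mergeAll_nn hnn η) hxd (hyd (Fin.last k)) ih1
      (hyp (Fin.last k)) hmass
    have hm : 0 ≤ t * ((∑ η : (∀ c : Fin k, Ω c.castSucc),
        GG p2T (mergeAll (Ω := fun c : Fin k => Ω c.castSucc) (fun c => y c.castSucc) η)) *
        ∑ ξ, GG p2T (y (Fin.last k) ξ)) := by
      apply mul_nonneg hD.t0
      apply mul_nonneg
      · exact Finset.sum_nonneg fun η _ => GG_nonneg_of p2T_nonneg (mergeAll_nn hnn η)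
      · exact Finset.sum_nonneg fun ξ _ => GG_nonneg_of p2T_nonneg ((hy (Fin.last k)).nn ξ)
    rw [Fin.sum_univ_castSucc]
    linarith

/-- The merge inequality for two children, with margin. -/
theorem merge_twoL (hD : LagData ψ Y G H lb t κ)
    (Ω : Fin 2 → Type) [∀ c, Fintype (Ω c)] (y : ∀ c, Ω c → W3)
    (hy : ∀ c, Fam (y c)) (hyd : ∀ c ξ, 0 < M3 (y c ξ) → InSx lb (cen (y c ξ)))
    (hyp : ∀ c, 0 ≤ ∑ ξ, GG p3T (y c ξ)) :
    ∑ ω : (∀ c, Ω c), GG ψ (mergeAll y ω) ≤ ∑ c, ∑ ξ, GG Y (y c ξ)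
      - t * ((∑ ξ, GG p2T (y 0 ξ)) * ∑ ξ, GG p2T (y 1 ξ)) := by
  have e : ∑ ω : (∀ c, Ω c), GG ψ (mergeAll y ω)
      = ∑ a, ∑ b, GG ψ (mrg (y 0 a) (y 1 b)) := by
    rw [← Equiv.sum_comp (piFinTwoEquiv Ω).symm, Fintype.sum_prod_type]
    apply Finset.sum_congr rfl
    intro a _
    apply Finset.sum_congr rfl
    intro b _
    congr 1
    funext i
    simp only [mergeAll, mrg, Fin.prod_univ_two, piFinTwoEquiv]
    simp
    ring
  rw [e]
  have key := psi_step hD (hy 1) (hy 0).nn (fun η h => cen_inSx ((hy 0).nn η) h) (hyd 1) (hyp 0) (hyp 1)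
    (hy 0).mass
  have h2 := psi_le_Y_fam hD (hy 0) (hyd 0) (hyp 0)
  rw [Fin.sum_univ_two]
  linarith

section tree

variable {lam : ℝ}

lemma GG_yT_of_scale {χ χ' : Tp → ℝ} (h0 : 0 ≤ lam) (h1 : lam ≤ 1) {f : ℝ}
    (hs : ∀ c, χ (scale lam c) = f * χ' c) (n : ℕ) (T : Tr n) :
    ∑ ξ, GG χ (yT lam n T ξ) = f * Sp lam χ' n T := by
  unfold Sp
  rw [Finset.mul_sum]
  apply Finset.sum_congr rfl
  intro ξ _
  rcases (M3_nonneg (xT_nn h0 h1 n T ξ)).eq_or_lt with h | h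
  · simp [GG, M3_yT, ← h]
  · simp only [GG, M3_yT]
    rw [cen_yT n T ξ h, hs]
    ring

lemma p3T_scale (s : ℝ) (c : Tp) : p3T (scale s c) = s ^ 3 * p3T c := by
  simp only [p3T, scale]
  ring

/-- At the leaves the invariant is positive. -/
lemma Sp_p3_zero (T : Tr 0) : 0 ≤ Sp lam p3T 0 T := by
  unfold Sp
  apply Finset.sum_nonneg
  intro τ _
  simp only [GG, M3, cen, xT]
  fin_cases τ <;> simp [lik, p3T] <;> norm_num

/-- **The invariant**: on every fixed tree the expectation of `p3T` is nonnegative. -/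
theorem Sp_p3_nonneg (hD : LagData ψ Y G H lb t κ) (h0 : 0 ≤ lam) (hl : lam ≤ lb) :
    ∀ (n : ℕ) (T : Tr n), 0 ≤ Sp lam p3T n T := by
  have h1 : lam ≤ 1 := by linarith [hD.lb1]
  intro n
  induction n with
  | zero => exact Sp_p3_zero
  | succ n ih =>
    rintro ⟨k, T⟩
    rw [Sp_succ]
    exact (merge_allL hD k (fun c => Leaves 3 n (T c))
      (fun c => yT lam n (T c)) (fun c => yT_fam h0 h1 n (T c))
      (fun c ξ h => (yT_dom h0 h1 n (T c) ξ h).mono hl)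
      (fun c => by
        rw [GG_yT_of_scale h0 h1 (p3T_scale lam)]
        exact mul_nonneg (pow_nonneg h0 3) (ih _))).1

lemma Sp_child_p3 (hD : LagData ψ Y G H lb t κ) (h0 : 0 ≤ lam) (hl : lam ≤ lb) (n : ℕ) (T : Tr n) :
    0 ≤ ∑ ξ, GG p3T (yT lam n T ξ) := by
  have h1 : lam ≤ 1 := by linarith [hD.lb1]
  rw [GG_yT_of_scale h0 h1 (p3T_scale lam)]
  exact mul_nonneg (pow_nonneg h0 3) (Sp_p3_nonneg hD h0 hl n T)

/-- The recursion on a fixed tree, with Lagrange terms. -/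
lemma Sp_succ_leL (hD : LagData ψ Y G H lb t κ)
    (hdom : ∀ c, ∀ s, 0 ≤ s → s ≤ lb → Y (scale s c) ≤ s ^ 2 * ψ c)
    (h0 : 0 ≤ lam) (hl : lam ≤ lb) (n k : ℕ) (T : Fin k → Tr n) :
    Sp lam ψ (n + 1) ⟨k, T⟩ ≤ lam ^ 2 * ∑ c, Sp lam ψ n (T c) := by
  have h1 : lam ≤ 1 := by linarith [hD.lb1]
  rw [Sp_succ]
  refine (merge_allL hD k (fun c => Leaves 3 n (T c))
    (fun c => yT lam n (T c)) (fun c => yT_fam h0 h1 n (T c))
    (fun c ξ h => (yT_dom h0 h1 n (T c) ξ h).mono hl)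
    (fun c => Sp_child_p3 hD h0 hl n (T c))).2.trans ?_
  rw [Finset.mul_sum]
  exact Finset.sum_le_sum fun c _ => V_le hdom h0 h1 hl n (T c)

lemma Sp_two_leL (hD : LagData ψ Y G H lb t κ)
    (hdom : ∀ c, ∀ s, 0 ≤ s → s ≤ lb → Y (scale s c) ≤ s ^ 2 * ψ c)
    (h0 : 0 ≤ lam) (hl : lam ≤ lb) (n : ℕ) (T : Fin 2 → Tr n) :
    Sp lam ψ (n + 1) ⟨2, T⟩ ≤ lam ^ 2 * ∑ c, Sp lam ψ n (T c)
      - t * lam ^ 4 * (Sp lam p2T n (T 0) * Sp lam p2T n (T 1)) := by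
  have h1 : lam ≤ 1 := by linarith [hD.lb1]
  rw [Sp_succ]
  have key := merge_twoL hD (fun c => Leaves 3 n (T c))
    (fun c => yT lam n (T c)) (fun c => yT_fam h0 h1 n (T c))
    (fun c ξ h => (yT_dom h0 h1 n (T c) ξ h).mono hl)
    (fun c => Sp_child_p3 hD h0 hl n (T c))
  rw [V_p2 h0 h1, V_p2 h0 h1] at key
  have h2 : ∑ c, ∑ ξ, GG Y (yT lam n (T c) ξ) ≤ lam ^ 2 * ∑ c, Sp lam ψ n (T c) := by
    rw [Finset.mul_sum]
    exact Finset.sum_le_sum fun c _ => V_le hdom h0 h1 hl n (T c)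
  have e : t * (lam ^ 2 * Sp lam p2T n (T 0) * (lam ^ 2 * Sp lam p2T n (T 1)))
      = t * lam ^ 4 * (Sp lam p2T n (T 0) * Sp lam p2T n (T 1)) := by ring
  linarith

end tree

/-- **Nonreconstruction on Galton-Watson trees** from the merge inequality with Lagrange terms. -/
theorem tendsto_advantageL {π : ℕ → ℝ} {lam C d : ℝ} (hπ0 : ∀ k, 0 ≤ π k) (hπ : HasSum π 1)
    (hmean : HasSum (fun k : ℕ => (k : ℝ) * π k) d) (hπ2 : 0 < π 2)
    (hD : LagData ψ Y G H lb t κ) (ht : 0 < t)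
    (hdom : ∀ c, ∀ s, 0 ≤ s → s ≤ lb → Y (scale s c) ≤ s ^ 2 * ψ c)
    (hge : ∀ c, InSx 1 c → p2T c ≤ ψ c) (hbd : ∀ c, InSx 1 c → ψ c ≤ C)
    (h0 : 0 ≤ lam) (hl : lam ≤ lb) (hd : d * lam ^ 2 ≤ 1) :
    Filter.Tendsto (advantage π 3 lam) Filter.atTop (nhds 0) := by
  have h1 : lam ≤ 1 := by linarith [hD.lb1]
  exact tendsto_of_rec hπ0 hπ hmean hπ2 ht (fun c hc => (p2T_nonneg c).trans (hge c hc))
    hge hbd h0 h1 hd (Sp_succ_leL hD hdom h0 hl) (Sp_two_leL hD hdom h0 hl)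

end Vale.Agent.Lib.P154GW
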