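import Vale.Agent.Lib.P154GW.Main
import Vale.Agent.Lib.P154.NR9

/-!
# The Poisson offspring law, and nonreconstruction for mean at least nine
-/

open Finset Filter Topology

namespace Vale.Agent.Lib.P154GW

open Vale.Agent.Lib.P154

lemma poisson_nonneg {d : ℝ} (hd : 0 ≤ d) (k : ℕ) : 0 ≤ poisson d k := by
  unfold poisson
  positivity

lemma poisson_hasSum (d : ℝ) : HasSum (poisson d) 1 := by
  have h : HasSum (fun n : ℕ => d ^ n / (n.factorial : ℝ)) (Real.exp d) := by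
    have := NormedSpace.expSeries_div_hasSum_exp d
    rwa [Real.exp_eq_exp_ℝ]
  have h2 := h.mul_left (Real.exp (-d))
  have e : Real.exp (-d) * Real.exp d = 1 := by
    rw [← Real.exp_add]; simp
  rw [e] at h2
  have e2 : poisson d = fun i : ℕ => Real.exp (-d) * (d ^ i / (i.factorial : ℝ)) := by
    funext k
    simp only [poisson]
    ring
  rw [e2]
  exact h2

lemma poisson_mean (d : ℝ) : HasSum (fun k : ℕ => (k : ℝ) * poisson d k) d := by
  have h := (poisson_hasSum d).mul_left d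
  rw [mul_one] at h
  rw [← hasSum_nat_add_iff' 1]
  simp only [Finset.sum_range_one, Nat.cast_zero, zero_mul, sub_zero]
  have e2 : (fun k : ℕ => ((k + 1 : ℕ) : ℝ) * poisson d (k + 1)) = fun k : ℕ => d * poisson d k := by
    funext k
    simp only [poisson, Nat.factorial_succ]
    have hk : ((k.factorial : ℕ) : ℝ) ≠ 0 := by positivity
    have hk1 : ((k : ℝ) + 1) ≠ 0 := by positivity
    push_cast
    field_simp
    ring
  rw [e2]
  exact h

lemma poisson_two_pos {d : ℝ} (hd : 0 < d) : 0 < poisson d 2 := by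
  unfold poisson
  positivity

/-- The cubic power sum is controlled by the quadratic one on zero-sum triples. -/
lemma sq_cubic_le {c : Tp} (hc : c.ZS) :
    6 * (c.x ^ 3 + c.y ^ 3 + c.z ^ 3) ^ 2 ≤ p2T c ^ 3 := by
  obtain ⟨x, y, z⟩ := c
  have hz := ZS_z hc
  simp only [p2T] at *
  subst hz
  nlinarith [sq_nonneg ((x - y) * (y - (-x - y)) * ((-x - y) - x))]

/-- The potentials are bounded on the simplex. -/
lemma psiT_le_two (p : Pot) (ha' : (p.a : ℝ) / 4096 ≤ 1 / 2)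
    (hb : |(p.b : ℝ) / 4096| ≤ 2) (hc' : (p.c : ℝ) / 4096 ≤ 6)
    {c : Tp} (hc : InSx 1 c) : psiT 4096 p c ≤ 2 := by
  have h1 := p2T_le_of_inSx hc
  have h0 := p2T_nonneg c
  have h2 := sq_cubic_le hc.zs
  set P := p2T c
  set Q := c.x ^ 3 + c.y ^ 3 + c.z ^ 3
  have hP3 : P ^ 3 ≤ (2 / 3) ^ 3 := pow_le_pow_left₀ h0 h1 3
  have hQ2 : Q ^ 2 ≤ 4 / 81 := by nlinarith
  have hQ : |Q| ≤ 2 / 9 := by
    rw [show (2 / 9 : ℝ) = Real.sqrt (4 / 81) by
      rw [show (4 / 81 : ℝ) = (2 / 9) ^ 2 by norm_num]; exact (Real.sqrt_sq (by norm_num)).symm]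
    exact Real.abs_le_sqrt hQ2
  have hPQ : |P * Q| ≤ 2 / 3 * (2 / 9) := by
    rw [abs_mul, abs_of_nonneg h0]
    exact mul_le_mul h1 hQ (abs_nonneg _) (by norm_num)
  have hbPQ : (p.b : ℝ) / 4096 * (P * Q) ≤ 2 * (2 / 3 * (2 / 9)) := by
    calc (p.b : ℝ) / 4096 * (P * Q) ≤ |(p.b : ℝ) / 4096 * (P * Q)| := le_abs_self _
      _ = |(p.b : ℝ) / 4096| * |P * Q| := abs_mul _ _
      _ ≤ 2 * (2 / 3 * (2 / 9)) := mul_le_mul hb hPQ (abs_nonneg _) (by norm_num)
  have haP : (p.a : ℝ) / 4096 * P ^ 2 ≤ 1 / 2 * (2 / 3) ^ 2 := by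
    apply mul_le_mul ha' _ (sq_nonneg _) (by norm_num)
    exact pow_le_pow_left₀ h0 h1 2
  have hcQ : (p.c : ℝ) / 4096 * Q ^ 2 ≤ 6 * (4 / 81) :=
    mul_le_mul hc' hQ2 (sq_nonneg _) (by norm_num)
  have hsum : (p.a : ℝ) / 4096 * P ^ 2 + (p.b : ℝ) / 4096 * (P * Q) + (p.c : ℝ) / 4096 * Q ^ 2 ≤ 4 / 3 := by
    norm_num at haP hbPQ hcQ ⊢
    linarith
  have e' : psiT 4096 p c = P + (p.a : ℝ) / 4096 * P ^ 2 + (p.b : ℝ) / 4096 * (P * Q) + (p.c : ℝ) / 4096 * Q ^ 2 := by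
    simp only [psiT, P, Q, p2T]
    norm_num
  rw [e']
  linarith

/-- Nonreconstruction for the three-state ferromagnetic channel on the Galton-Watson tree with
Poisson offspring of mean at least nine, up to and including the Kesten-Stigum bound. -/
theorem poisson_nonrecon {d lam : ℝ} (hd9 : 9 ≤ d) (h0 : 0 ≤ lam) (hd : d * lam ^ 2 ≤ 1) :
    Tendsto (advantage (poisson d) 3 lam) atTop (𝓝 0) := by
  have hd0 : 0 < d := by linarith
  have hl : lam ≤ lamR (1, 3) := by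
    have h9 : 9 * lam ^ 2 ≤ 1 := by
      have := mul_le_mul_of_nonneg_right hd9 (sq_nonneg lam)
      linarith
    exact lam_le_of (D := 9) (by norm_num) (by norm_num [lamR]) h9 (by norm_num [lamR])
  refine tendsto_advantage (C := 2) (poisson_nonneg hd0.le) (poisson_hasSum d) (poisson_mean d)
    (poisson_two_pos hd0) (Y := psiT 4096 ⟨3834, (-164345), 1981748⟩)
    (ψ := psiT 4096 ⟨427, (-6087), 24468⟩) (lb := lamR (1, 3))
    (t := ((K9s1.tn : ℕ) : ℝ) / (K9s1.den : ℕ)) ?_ (t_pos (by decide) (by decide))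
    (by norm_num [lamR]) (by norm_num [lamR]) ?_ ?_ (psiT_zero _ _) (psiT_inv _ _) ?_ h0 hl hd
  · exact Merge.la_one (merge_of_cert K9s1_hwf K9s1_hq K9s1_hpp K9s1_hpm K9s1_hmp K9s1_hmm) rfl Nat.one_pos
  · intro c s hs0 hsl
    refine dom_lemma (pY := ⟨3834, (-164345), 1981748⟩) (pd := ⟨427, (-6087), 24468⟩) (den := 4096)
      (by norm_num) (l := lamR (1, 3)) (by norm_num [lamR]) ?_ ?_ ?_ ?_ ?_ ?_ c s hs0 hsl <;> norm_num [lamR]
  · intro c
    refine ge_p2 (den := 4096) (p := ⟨427, (-6087), 24468⟩) (by norm_num) ?_ ?_ ?_ c <;> norm_num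
  · intro c hc
    refine psiT_le_two _ ?_ ?_ ?_ hc <;> norm_num [abs_le]

end Vale.Agent.Lib.P154GW
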