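import Mathlib

/-!
# Broadcasting on Galton-Watson trees

`Tr n` is the set of rooted plane trees truncated at depth `n`: at depth `< n` a vertex has a number
of children, at depth `n` nothing is recorded.  The law of the truncated Galton-Watson tree with
offspring law `π` is `treeProb π n`.  Given a tree `T`, `Leaves q n T` is the set of spin configurations on
the vertices of `T` at depth `n`.  All the posterior quantities are computed given the tree.
-/

open Finset

namespace Vale.Agent.Lib.P154GW

/-- Rooted plane trees truncated at depth `n`. -/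
@[reducible] def Tr : ℕ → Type
  | 0 => Unit
  | n + 1 => Σ k : ℕ, (Fin k → Tr n)

/-- The probability of a truncated tree under the Galton-Watson law with offspring law `π`. -/
noncomputable def treeProb (π : ℕ → ℝ) : (n : ℕ) → Tr n → ℝ
  | 0, _ => 1
  | n + 1, T =>
    π T.1 * ∏ c : Fin T.1, treeProb π n (T.2 c)

/-- Spin configurations on the vertices of `T` at depth `n`. -/
@[reducible] def Leaves (q : ℕ) : (n : ℕ) → Tr n → Type
  | 0, _ => Fin q
  | n + 1, T => (c : Fin T.1) → Leaves q n (T.2 c)

/-- Finitely many configurations. -/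
noncomputable instance Leaves.instFintype (q : ℕ) : (n : ℕ) → (T : Tr n) → Fintype (Leaves q n T)
  | 0, _ => inferInstanceAs (Fintype (Fin q))
  | n + 1, T =>
    letI := fun c => Leaves.instFintype q n (T.2 c)
    inferInstanceAs (Fintype ((c : Fin T.1) → Leaves q n (T.2 c)))

/-- The `q`-state Potts channel. -/
noncomputable def chan (q : ℕ) (lam : ℝ) (i j : Fin q) : ℝ :=
  lam * (if i = j then 1 else 0) + (1 - lam) / q

/-- `lik q lam n T ω i` is the conditional probability, given the tree `T` and the root spin `i`, that the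
spins at depth `n` read `ω`. -/
noncomputable def lik (q : ℕ) (lam : ℝ) : (n : ℕ) → (T : Tr n) → Leaves q n T → Fin q → ℝ
  | 0, _, τ, i => if i = τ then 1 else 0
  | n + 1, T, ω, i => ∏ c : Fin T.1, ∑ j : Fin q, chan q lam i j * lik q lam n (T.2 c) (ω c) j

/-- The conditional probability of the configuration `ω` given the tree, for a uniform root spin. -/
noncomputable def marg (q : ℕ) (lam : ℝ) (n : ℕ) (T : Tr n) (ω : Leaves q n T) : ℝ :=
  ∑ i : Fin q, (1 / (q : ℝ)) * lik q lam n T ω i

/-- The posterior `Pr(σ_ρ = i | T, σ_{L_n} = ω)`. -/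
noncomputable def post (q : ℕ) (lam : ℝ) (n : ℕ) (T : Tr n) (ω : Leaves q n T) (i : Fin q) : ℝ :=
  (1 / (q : ℝ)) * lik q lam n T ω i / marg q lam n T ω

/-- The conditional expectation given the tree `T` of `(1/2) ∑_i |Pr(σ_ρ = i | T, σ_{L_n}) - 1/q|`. -/
noncomputable def advTree (q : ℕ) (lam : ℝ) (n : ℕ) (T : Tr n) : ℝ :=
  ∑ ω : Leaves q n T, marg q lam n T ω *
    ((1 / 2) * ∑ i : Fin q, |post q lam n T ω i - 1 / (q : ℝ)|)

/-- The quantity `a_n` of the Galton-Watson tree with offspring law `π`: the expectation over the tree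
of `advTree`. -/
noncomputable def advantage (π : ℕ → ℝ) (q : ℕ) (lam : ℝ) (n : ℕ) : ℝ :=
  ∑' T : Tr n, treeProb π n T * advTree q lam n T

/-- The Poisson offspring law of mean `d`. -/
noncomputable def poisson (d : ℝ) (k : ℕ) : ℝ :=
  Real.exp (-d) * d ^ k / (k.factorial : ℝ)

end Vale.Agent.Lib.P154GW
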