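import Mathlib

/-!
# Countable sums over products and dependent pairs, for nonnegative terms
-/

open Finset

namespace Vale.Agent.Lib.P154GW

/-- Product of two nonnegative series. -/
lemma hasSum_mul_of_nonneg {α β : Type*} {f : α → ℝ} {g : β → ℝ} {s u : ℝ}
    (hf : HasSum f s) (hg : HasSum g u) (hf0 : ∀ x, 0 ≤ f x) (hg0 : ∀ x, 0 ≤ g x) :
    HasSum (fun z : α × β => f z.1 * g z.2) (s * u) := by
  have hsum : Summable (fun z : α × β => f z.1 * g z.2) :=
    Summable.mul_of_nonneg hf.summable hg.summable hf0 hg0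
  have hf' : Summable (fun x => ‖f x‖) := by
    simpa [Real.norm_of_nonneg (hf0 _)] using hf.summable
  have hg' : Summable (fun x => ‖g x‖) := by
    simpa [Real.norm_of_nonneg (hg0 _)] using hg.summable
  have := tsum_mul_tsum_of_summable_norm hf' hg'
  rw [hf.tsum_eq, hg.tsum_eq] at this
  rw [this]
  exact hsum.hasSum

/-- Product over `Fin k` of nonnegative series. -/
lemma hasSum_prod_fin {Ω : Type*} :
    ∀ (k : ℕ) (g : Fin k → Ω → ℝ) (s : Fin k → ℝ), (∀ c x, 0 ≤ g c x) → (∀ c, HasSum (g c) (s c)) →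
      HasSum (fun T : Fin k → Ω => ∏ c, g c (T c)) (∏ c, s c) := by
  intro k
  induction k with
  | zero =>
    intro g s _ _
    simp only [Fin.prod_univ_zero]
    exact hasSum_unique (fun _ : Fin 0 → Ω => (1 : ℝ))
  | succ k ih =>
    intro g s h0 hs
    have h1 := ih (fun c => g c.succ) (fun c => s c.succ) (fun c x => h0 _ x) (fun c => hs _)
    have h2 := hasSum_mul_of_nonneg (hs 0) h1 (h0 0)
      (fun T => Finset.prod_nonneg fun c _ => h0 _ _)
    rw [Fin.prod_univ_succ]
    rw [← (Fin.consEquiv (fun _ : Fin (k + 1) => Ω)).hasSum_iff]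
    convert h2 using 1
    funext z
    simp [Fin.prod_univ_succ, Fin.consEquiv]

/-- Sum over dependent pairs from fibrewise sums, for nonnegative terms. -/
lemma hasSum_sigma_nonneg {α : Type*} {β : α → Type*} {f : (Σ x, β x) → ℝ} {g : α → ℝ} {a : ℝ}
    (h0 : ∀ x, 0 ≤ f x) (hf : ∀ x, HasSum (fun y => f ⟨x, y⟩) (g x)) (hg : HasSum g a) :
    HasSum f a := by
  have hsum : Summable f := by
    rw [summable_sigma_of_nonneg h0]
    refine ⟨fun x => (hf x).summable, ?_⟩
    have : (fun x => ∑' y, f ⟨x, y⟩) = g := by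
      funext x
      exact (hf x).tsum_eq
    rw [show (fun x => ∑' (y : β x), f ⟨x, y⟩) = g from this]
    exact hg.summable
  exact HasSum.sigma_of_hasSum hg hf hsum

end Vale.Agent.Lib.P154GW
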