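import Vale.Agent.Lib.P154GW.MergeAll
import Vale.Agent.Lib.P154GW.Sums

/-!
# From the stationary merge inequality to nonreconstruction on Galton-Watson trees
-/

open Finset Filter Topology

namespace Vale.Agent.Lib.P154GW

open Vale.Agent.Lib.P154

variable {π : ℕ → ℝ} {lam : ℝ}

lemma treeProb_succ (π : ℕ → ℝ) (n k : ℕ) (T : Fin k → Tr n) :
    treeProb π (n + 1) ⟨k, T⟩ = π k * ∏ c, treeProb π n (T c) := rfl

lemma treeProb_nonneg (hπ0 : ∀ k, 0 ≤ π k) : ∀ (n : ℕ) (T : Tr n), 0 ≤ treeProb π n T := by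
  intro n
  induction n with
  | zero => intro T; show (0 : ℝ) ≤ 1; norm_num
  | succ n ih =>
    rintro ⟨k, T⟩
    rw [treeProb_succ]
    exact mul_nonneg (hπ0 k) (Finset.prod_nonneg fun c _ => ih _)

lemma hasSum_treeProb (hπ0 : ∀ k, 0 ≤ π k) (hπ : HasSum π 1) :
    ∀ n, HasSum (treeProb π n) 1 := by
  intro n
  induction n with
  | zero =>
    exact hasSum_unique (treeProb π 0)
  | succ n ih =>
    refine hasSum_sigma_nonneg (g := fun k => π k) (fun x => treeProb_nonneg hπ0 (n + 1) x) ?_ hπ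
    intro k
    have h := (hasSum_prod_fin k (fun _ => treeProb π n) (fun _ => 1)
      (fun _ x => treeProb_nonneg hπ0 n x) (fun _ => ih)).mul_left (π k)
    simpa [treeProb_succ] using h

/-- The expected potential given the tree. -/
noncomputable def Sp (lam : ℝ) (χ : Tp → ℝ) (n : ℕ) (T : Tr n) : ℝ :=
  ∑ ω : Leaves 3 n T, GG χ (xT lam n T ω)

lemma GG_nonneg_on {χ : Tp → ℝ} {l : ℝ} {x : W3} (hx : NN x) (hd : 0 < M3 x → InSx l (cen x))
    (hχ : ∀ c, InSx l c → 0 ≤ χ c) : 0 ≤ GG χ x := by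
  rcases (M3_nonneg hx).eq_or_lt with h | h
  · simp [GG, ← h]
  · exact mul_nonneg h.le (hχ _ (hd h))

lemma Sp_nonneg (h0 : 0 ≤ lam) (h1 : lam ≤ 1) {χ : Tp → ℝ} (hχ : ∀ c, InSx 1 c → 0 ≤ χ c)
    (n : ℕ) (T : Tr n) : 0 ≤ Sp lam χ n T :=
  Finset.sum_nonneg fun ω _ => GG_nonneg_on (xT_nn h0 h1 n T ω)
    (fun h => cen_inSx (xT_nn h0 h1 n T ω) h) hχ

lemma Sp_le (h0 : 0 ≤ lam) (h1 : lam ≤ 1) {χ : Tp → ℝ} {C : ℝ} (hχ : ∀ c, InSx 1 c → χ c ≤ C)
    (n : ℕ) (T : Tr n) : Sp lam χ n T ≤ C := by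
  have : Sp lam χ n T ≤ ∑ ω : Leaves 3 n T, M3 (xT lam n T ω) * C := by
    apply Finset.sum_le_sum
    intro ω _
    rcases (M3_nonneg (xT_nn h0 h1 n T ω)).eq_or_lt with h | h
    · simp [GG, ← h]
    · exact mul_le_mul_of_nonneg_left (hχ _ (cen_inSx (xT_nn h0 h1 n T ω) h)) h.le
  rw [← Finset.sum_mul, sum_xT_mass, one_mul] at this
  exact this

lemma Sp_succ (χ : Tp → ℝ) (n k : ℕ) (T : Fin k → Tr n) :
    Sp lam χ (n + 1) ⟨k, T⟩ =
      ∑ ω : (c : Fin k) → Leaves 3 n (T c), GG χ (mergeAll (fun c => yT lam n (T c)) ω) := by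
  unfold Sp
  rw [sum_leaves_succ]
  apply Finset.sum_congr rfl
  intro ω _
  rw [xT_succ]

lemma V_le {ψ Y : Tp → ℝ} {lb : ℝ} (hdom : ∀ c, ∀ s, 0 ≤ s → s ≤ lb → Y (scale s c) ≤ s ^ 2 * ψ c)
    (h0 : 0 ≤ lam) (h1 : lam ≤ 1) (hl : lam ≤ lb) (n : ℕ) (T : Tr n) :
    ∑ ξ, GG Y (yT lam n T ξ) ≤ lam ^ 2 * Sp lam ψ n T := by
  unfold Sp
  rw [Finset.mul_sum]
  apply Finset.sum_le_sum
  intro ξ _
  rcases (M3_nonneg (xT_nn h0 h1 n T ξ)).eq_or_lt with h | h
  · simp [GG, M3_yT, ← h]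
  · simp only [GG, M3_yT]
    rw [cen_yT n T ξ h]
    have := mul_le_mul_of_nonneg_left (hdom (cen (xT lam n T ξ)) lam h0 hl) h.le
    calc _ ≤ _ := this
      _ = _ := by ring

lemma V_p2 (h0 : 0 ≤ lam) (h1 : lam ≤ 1) (n : ℕ) (T : Tr n) :
    ∑ ξ, GG p2T (yT lam n T ξ) = lam ^ 2 * Sp lam p2T n T := by
  unfold Sp
  rw [Finset.mul_sum]
  apply Finset.sum_congr rfl
  intro ξ _
  rcases (M3_nonneg (xT_nn h0 h1 n T ξ)).eq_or_lt with h | h
  · simp [GG, M3_yT, ← h]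
  · simp only [GG, M3_yT]
    rw [cen_yT n T ξ h, p2T_scale]
    ring

section tree

variable {ψ Y : Tp → ℝ} {lb t : ℝ}

lemma yT_dom' (h0 : 0 ≤ lam) (h1 : lam ≤ 1) (hl : lam ≤ lb) (n : ℕ) (T : Tr n) (ω : Leaves 3 n T)
    (h : 0 < M3 (yT lam n T ω)) : InSx lb (cen (yT lam n T ω)) :=
  (yT_dom h0 h1 n T ω h).mono hl

/-- The recursion on a fixed tree. -/
lemma Sp_succ_le (hM : Merge ψ ψ Y 1 lb t) (ht : 0 ≤ t) (hlb0 : 0 ≤ lb) (hlb : lb < 1)
    (hdom : ∀ c, ∀ s, 0 ≤ s → s ≤ lb → Y (scale s c) ≤ s ^ 2 * ψ c)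
    (hzero : ψ ⟨0, 0, 0⟩ = 0) (h0 : 0 ≤ lam) (hl : lam ≤ lb) (n k : ℕ) (T : Fin k → Tr n) :
    Sp lam ψ (n + 1) ⟨k, T⟩ ≤ lam ^ 2 * ∑ c, Sp lam ψ n (T c) := by
  have h1 : lam ≤ 1 := by linarith
  rw [Sp_succ]
  refine (merge_all hM ht hlb0 hlb hzero k (fun c => Leaves 3 n (T c))
    (fun c => yT lam n (T c)) (fun c => yT_fam h0 h1 n (T c))
    (fun c ξ h => yT_dom' h0 h1 hl n (T c) ξ h)).trans ?_
  rw [Finset.mul_sum]
  exact Finset.sum_le_sum fun c _ => V_le hdom h0 h1 hl n (T c)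

lemma Sp_two_le (hM : Merge ψ ψ Y 1 lb t) (hlb0 : 0 ≤ lb) (hlb : lb < 1)
    (hdom : ∀ c, ∀ s, 0 ≤ s → s ≤ lb → Y (scale s c) ≤ s ^ 2 * ψ c)
    (hle : ∀ b, InSx lb b → ψ b ≤ Y b) (h0 : 0 ≤ lam) (hl : lam ≤ lb) (n : ℕ) (T : Fin 2 → Tr n) :
    Sp lam ψ (n + 1) ⟨2, T⟩ ≤ lam ^ 2 * ∑ c, Sp lam ψ n (T c)
      - t * lam ^ 4 * (Sp lam p2T n (T 0) * Sp lam p2T n (T 1)) := by
  have h1 : lam ≤ 1 := by linarith
  rw [Sp_succ]
  have key := merge_two hM hlb0 hlb hle (fun c => Leaves 3 n (T c))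
    (fun c => yT lam n (T c)) (fun c => yT_fam h0 h1 n (T c))
    (fun c ξ h => yT_dom' h0 h1 hl n (T c) ξ h)
  rw [V_p2 h0 h1, V_p2 h0 h1] at key
  have h2 : ∑ c, ∑ ξ, GG Y (yT lam n (T c) ξ) ≤ lam ^ 2 * ∑ c, Sp lam ψ n (T c) := by
    rw [Finset.mul_sum]
    exact Finset.sum_le_sum fun c _ => V_le hdom h0 h1 hl n (T c)
  have e : t * (lam ^ 2 * Sp lam p2T n (T 0) * (lam ^ 2 * Sp lam p2T n (T 1)))
      = t * lam ^ 4 * (Sp lam p2T n (T 0) * Sp lam p2T n (T 1)) := by ring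
  linarith

end tree

/-- Marginalisation over countable products. -/
lemma hasSum_marginal {Ω : Type*} {m h : Ω → ℝ} {E : ℝ} (hm0 : ∀ x, 0 ≤ m x) (hm : HasSum m 1)
    (hh0 : ∀ x, 0 ≤ h x) (hE : HasSum (fun x => m x * h x) E) (k : ℕ) (c₀ : Fin k) :
    HasSum (fun T : Fin k → Ω => (∏ c, m (T c)) * h (T c₀)) E := by
  classical
  have key := hasSum_prod_fin k (fun c x => if c = c₀ then m x * h x else m x)
    (fun c => if c = c₀ then E else 1)
    (fun c x => by split_ifs; exacts [mul_nonneg (hm0 x) (hh0 x), hm0 x])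
    (fun c => by split_ifs; exacts [hE, hm])
  have e1 : (∏ c, (if c = c₀ then E else 1)) = E := by
    rw [Finset.prod_ite_eq' Finset.univ c₀ (fun _ => E)]
    simp
  rw [e1] at key
  have e2 : (fun T : Fin k → Ω => (∏ c, m (T c)) * h (T c₀))
      = fun T => ∏ c, (if c = c₀ then m (T c) * h (T c) else m (T c)) := by
    funext T
    rw [← Finset.mul_prod_erase Finset.univ (fun c => m (T c)) (Finset.mem_univ c₀),
      ← Finset.mul_prod_erase Finset.univ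
        (fun c => if c = c₀ then m (T c) * h (T c) else m (T c)) (Finset.mem_univ c₀)]
    simp only [if_true]
    have : ∏ c ∈ Finset.univ.erase c₀, (if c = c₀ then m (T c) * h (T c) else m (T c))
        = ∏ c ∈ Finset.univ.erase c₀, m (T c) := by
      apply Finset.prod_congr rfl
      intro c hc
      rw [if_neg (Finset.ne_of_mem_erase hc)]
    rw [this]
    ring
  rw [e2]
  exact key

section level

variable {ψ Y : Tp → ℝ} {lb t C d : ℝ}

/-- Summability of the terms. -/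
lemma summable_terms (hπ0 : ∀ k, 0 ≤ π k) (hπ : HasSum π 1) {χ : Tp → ℝ}
    (hχ0 : ∀ c, InSx 1 c → 0 ≤ χ c) (hχ : ∀ c, InSx 1 c → χ c ≤ C) (h0 : 0 ≤ lam) (h1 : lam ≤ 1) (n : ℕ) :
    Summable (fun T => treeProb π n T * Sp lam χ n T) := by
  have h := (hasSum_treeProb hπ0 hπ n).summable.mul_right C
  refine Summable.of_nonneg_of_le (fun T => ?_) (fun T => ?_) h
  · exact mul_nonneg (treeProb_nonneg hπ0 n T) (Sp_nonneg h0 h1 hχ0 n T)
  · exact mul_le_mul_of_nonneg_left (Sp_le h0 h1 hχ n T) (treeProb_nonneg hπ0 n T)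

/-- The recursion for the expected potential over the Galton-Watson tree, from the recursion on a
fixed tree. -/
theorem level_rec_of (hπ0 : ∀ k, 0 ≤ π k) (hπ : HasSum π 1) (hmean : HasSum (fun k : ℕ => (k : ℝ) * π k) d)
    (hψ0 : ∀ c, InSx 1 c → 0 ≤ ψ c) (hge : ∀ c, InSx 1 c → p2T c ≤ ψ c)
    (hbd : ∀ c, InSx 1 c → ψ c ≤ C) (h0 : 0 ≤ lam) (h1 : lam ≤ 1)
    (hS1 : ∀ (n k : ℕ) (T : Fin k → Tr n),
      Sp lam ψ (n + 1) ⟨k, T⟩ ≤ lam ^ 2 * ∑ c, Sp lam ψ n (T c))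
    (hS2 : ∀ (n : ℕ) (T : Fin 2 → Tr n), Sp lam ψ (n + 1) ⟨2, T⟩ ≤ lam ^ 2 * ∑ c, Sp lam ψ n (T c)
      - t * lam ^ 4 * (Sp lam p2T n (T 0) * Sp lam p2T n (T 1))) (n : ℕ) :
    ∑' T, treeProb π (n + 1) T * Sp lam ψ (n + 1) T ≤
      d * lam ^ 2 * (∑' T, treeProb π n T * Sp lam ψ n T)
        - π 2 * t * lam ^ 4 * (∑' T, treeProb π n T * Sp lam p2T n T) ^ 2 := by
  have hP0 := treeProb_nonneg hπ0 n
  have hP := hasSum_treeProb hπ0 hπ n
  have hp2bd : ∀ c, InSx 1 c → p2T c ≤ C := fun c hc => (hge c hc).trans (hbd c hc)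
  have hp20 : ∀ c, InSx 1 c → 0 ≤ p2T c := fun c _ => p2T_nonneg c
  have hS0 := Sp_nonneg (lam := lam) h0 h1 hψ0 n
  have hS20 := Sp_nonneg (lam := lam) h0 h1 hp20 n
  set E := ∑' T, treeProb π n T * Sp lam ψ n T with hE
  set A := ∑' T, treeProb π n T * Sp lam p2T n T with hA
  have hEs : HasSum (fun T => treeProb π n T * Sp lam ψ n T) E :=
    (summable_terms hπ0 hπ hψ0 hbd h0 h1 n).hasSum
  have hAs : HasSum (fun T => treeProb π n T * Sp lam p2T n T) A :=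
    (summable_terms hπ0 hπ hp20 hp2bd h0 h1 n).hasSum
  -- the sum at level n + 1
  have hsum := summable_terms (lam := lam) hπ0 hπ hψ0 hbd h0 h1 (n + 1)
  have hfull := hsum.hasSum
  -- fibres
  have hfib : ∀ k : ℕ, Summable (fun T : Fin k → Tr n =>
      treeProb π (n + 1) ⟨k, T⟩ * Sp lam ψ (n + 1) ⟨k, T⟩) := by
    intro k
    exact Summable.sigma_factor hsum k
  set G : ℕ → ℝ := fun k => ∑' T : Fin k → Tr n,
      treeProb π (n + 1) ⟨k, T⟩ * Sp lam ψ (n + 1) ⟨k, T⟩ with hG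
  have hGs : ∀ k, HasSum (fun T : Fin k → Tr n =>
      treeProb π (n + 1) ⟨k, T⟩ * Sp lam ψ (n + 1) ⟨k, T⟩) (G k) := fun k => (hfib k).hasSum
  have hSigma : HasSum G (∑' T, treeProb π (n + 1) T * Sp lam ψ (n + 1) T) :=
    HasSum.sigma hfull hGs
  -- the comparison for a general number of children
  have hsumc : ∀ k : ℕ, HasSum (fun T : Fin k → Tr n =>
      π k * (lam ^ 2 * ∑ c, (∏ c', treeProb π n (T c')) * Sp lam ψ n (T c)))
      (π k * (lam ^ 2 * ((k : ℝ) * E))) := by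
    intro k
    have h := hasSum_sum (s := Finset.univ) (fun (c : Fin k) _ =>
      hasSum_marginal hP0 hP hS0 hEs k c)
    have e : ∑ _c : Fin k, E = (k : ℝ) * E := by simp
    rw [e] at h
    exact (h.mul_left (lam ^ 2)).mul_left (π k)
  have hle1 : ∀ k : ℕ, G k ≤ (k : ℝ) * π k * (lam ^ 2 * E) := by
    intro k
    have h2 := hasSum_le (fun T : Fin k → Tr n => ?_) (hGs k) (hsumc k)
    · calc G k ≤ _ := h2
        _ = _ := by ring
    · rw [treeProb_succ, mul_assoc]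
      apply mul_le_mul_of_nonneg_left _ (hπ0 k)
      have h3 := hS1 n k T
      have h4 := mul_le_mul_of_nonneg_left h3
        (Finset.prod_nonneg (s := Finset.univ) fun c _ => hP0 (T c))
      calc _ ≤ _ := h4
        _ = _ := by
          rw [Finset.mul_sum, Finset.mul_sum, Finset.mul_sum]
          apply Finset.sum_congr rfl
          intro c _
          ring
  have hle2 : G 2 ≤ 2 * π 2 * (lam ^ 2 * E) - π 2 * t * lam ^ 4 * A ^ 2 := by
    have hpair : HasSum (fun T : Fin 2 → Tr n =>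
        (∏ c', treeProb π n (T c')) * (Sp lam p2T n (T 0) * Sp lam p2T n (T 1))) (A ^ 2) := by
      have h := hasSum_prod_fin 2 (fun _ x => treeProb π n x * Sp lam p2T n x) (fun _ => A)
        (fun _ x => mul_nonneg (hP0 x) (hS20 x)) (fun _ => hAs)
      have e : (∏ _c : Fin 2, A) = A ^ 2 := by simp
      rw [e] at h
      convert h using 1
      funext T
      simp only [Fin.prod_univ_two]
      ring
    have h5 := ((hsumc 2).sub (hpair.mul_left (π 2 * t * lam ^ 4)))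
    have h2 := hasSum_le (fun T : Fin 2 → Tr n => ?_) (hGs 2) h5
    · calc G 2 ≤ _ := h2
        _ = _ := by push_cast; ring
    · rw [treeProb_succ]
      have h3 := hS2 n T
      have hPP : 0 ≤ π 2 * ∏ c, treeProb π n (T c) :=
        mul_nonneg (hπ0 2) (Finset.prod_nonneg fun c _ => hP0 (T c))
      have h4 := mul_le_mul_of_nonneg_left h3 hPP
      have e : ∑ c, (∏ c', treeProb π n (T c')) * Sp lam ψ n (T c)
          = (∏ c', treeProb π n (T c')) * ∑ c, Sp lam ψ n (T c) := by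
        rw [Finset.mul_sum]
      calc _ ≤ _ := h4
        _ = _ := by
          rw [e]
          ring
  -- sum over the number of children
  have hb : HasSum (fun k : ℕ => (k : ℝ) * π k * (lam ^ 2 * E)
      - (if k = 2 then π 2 * t * lam ^ 4 * A ^ 2 else 0))
      (d * (lam ^ 2 * E) - π 2 * t * lam ^ 4 * A ^ 2) :=
    (hmean.mul_right (lam ^ 2 * E)).sub (hasSum_ite_eq 2 _)
  have hfinal := hasSum_le (fun k => ?_) hSigma hb
  · calc _ ≤ _ := hfinal
      _ = _ := by ring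
  · by_cases hk : k = 2
    · subst hk
      simp only [if_true]
      have := hle2
      push_cast
      linarith
    · simp only [hk, if_false, sub_zero]
      exact hle1 k

end level

section final

variable {ψ Y : Tp → ℝ} {lb t C d : ℝ}

lemma marg_eq (n : ℕ) (T : Tr n) (ω : Leaves 3 n T) : marg 3 lam n T ω = M3 (xT lam n T ω) := by
  simp only [marg, M3, xT, Fin.sum_univ_three]
  norm_num

lemma advTree_eq (n : ℕ) (T : Tr n) : advTree 3 lam n T = ∑ ω : Leaves 3 n T, M3 (xT lam n T ω) *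
    ((1 / 2) * (|(cen (xT lam n T ω)).x| + |(cen (xT lam n T ω)).y| + |(cen (xT lam n T ω)).z|)) := by
  simp only [advTree, marg_eq, Fin.sum_univ_three, post, cen]
  apply Finset.sum_congr rfl
  intro ω _
  simp only [xT]
  norm_num

/-- Jensen for the square over a finite type. -/
lemma sq_sum_mul_le {Ω : Type*} [Fintype Ω] (m : Ω → ℝ) (hm0 : ∀ x, 0 ≤ m x)
    (hm : ∑ x, m x = 1) (h : Ω → ℝ) :
    (∑ x, m x * h x) ^ 2 ≤ ∑ x, m x * h x ^ 2 := by
  set a := ∑ x, m x * h x with ha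
  have key : ∀ x, m x * (2 * a * h x - a ^ 2) ≤ m x * h x ^ 2 := by
    intro x
    apply mul_le_mul_of_nonneg_left _ (hm0 x)
    nlinarith [sq_nonneg (h x - a)]
  have h2 := Finset.sum_le_sum (fun x (_ : x ∈ Finset.univ) => key x)
  have h3 : ∀ b : ℝ, ∑ x, m x * (2 * b * h x - b ^ 2)
      = 2 * b * (∑ x, m x * h x) - b ^ 2 * ∑ x, m x := by
    intro b
    rw [Finset.mul_sum, Finset.mul_sum, ← Finset.sum_sub_distrib]
    apply Finset.sum_congr rfl
    intro x _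
    ring
  rw [h3, hm, ← ha] at h2
  nlinarith

lemma advTree_sq_le (h0 : 0 ≤ lam) (h1 : lam ≤ 1) (n : ℕ) (T : Tr n) :
    advTree 3 lam n T ^ 2 ≤ 3 / 4 * Sp lam p2T n T := by
  rw [advTree_eq]
  refine (sq_sum_mul_le _ (fun ω => M3_nonneg (xT_nn h0 h1 n T ω)) (sum_xT_mass n T) _).trans ?_
  unfold Sp
  rw [Finset.mul_sum]
  apply Finset.sum_le_sum
  intro ω _
  have := mul_le_mul_of_nonneg_left (abs_bound (cen (xT lam n T ω))) (M3_nonneg (xT_nn h0 h1 n T ω))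
  calc _ ≤ _ := this
    _ = _ := by simp only [GG]; ring

lemma advTree_nonneg (h0 : 0 ≤ lam) (h1 : lam ≤ 1) (n : ℕ) (T : Tr n) : 0 ≤ advTree 3 lam n T := by
  rw [advTree_eq]
  exact Finset.sum_nonneg fun ω _ => mul_nonneg (M3_nonneg (xT_nn h0 h1 n T ω)) (by positivity)

lemma p2T_le_of_inSx {c : Tp} (hc : InSx 1 c) : p2T c ≤ 2 / 3 := by
  obtain ⟨x, y, z⟩ := c
  have hz := ZS_z hc.zs
  have h1 := hc.hx
  have h2 := hc.hy
  have h3 := hc.hz
  simp only [p2T] at *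
  subst hz
  nlinarith [mul_nonneg (sub_nonneg.2 h1) (sub_nonneg.2 h2), mul_nonneg (sub_nonneg.2 h1) (sub_nonneg.2 h3),
    mul_nonneg (sub_nonneg.2 h2) (sub_nonneg.2 h3)]

/-- The advantage terms are summable and their sum is controlled by the second moment. -/
lemma advantage_bounds (hπ0 : ∀ k, 0 ≤ π k) (hπ : HasSum π 1) (h0 : 0 ≤ lam) (h1 : lam ≤ 1) (n : ℕ) :
    Summable (fun T => treeProb π n T * advTree 3 lam n T) ∧
      advantage π 3 lam n ^ 2 ≤ 3 / 4 * ∑' T, treeProb π n T * Sp lam p2T n T := by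
  have hP0 := treeProb_nonneg hπ0 n
  have hP := hasSum_treeProb hπ0 hπ n
  have hA := (summable_terms (C := 2 / 3) hπ0 hπ (fun c _ => p2T_nonneg c) (fun c hc => p2T_le_of_inSx hc) h0 h1 n).hasSum
  have hadv : ∀ T, advTree 3 lam n T ≤ 1 := by
    intro T
    have h2 := advTree_sq_le h0 h1 n T
    have h3 := Sp_le (C := 2 / 3) h0 h1 (fun c hc => p2T_le_of_inSx hc) n T
    nlinarith [advTree_nonneg h0 h1 n T, sq_nonneg (advTree 3 lam n T - 1)]
  have hs : Summable (fun T => treeProb π n T * advTree 3 lam n T) := by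
    refine Summable.of_nonneg_of_le (fun T => ?_) (fun T => ?_) hP.summable
    · exact mul_nonneg (hP0 T) (advTree_nonneg h0 h1 n T)
    · calc treeProb π n T * advTree 3 lam n T ≤ treeProb π n T * 1 :=
            mul_le_mul_of_nonneg_left (hadv T) (hP0 T)
        _ = treeProb π n T := mul_one _
  refine ⟨hs, ?_⟩
  set a := advantage π 3 lam n with ha
  have has : HasSum (fun T => treeProb π n T * advTree 3 lam n T) a := hs.hasSum
  have h2 := ((has.mul_left (2 * a)).sub (hP.mul_right (a ^ 2)))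
  have h3 := hasSum_le (fun T => ?_) h2 (hA.mul_left (3 / 4))
  · nlinarith
  · have h4 := advTree_sq_le h0 h1 n T
    have h5 : treeProb π n T * (2 * a * advTree 3 lam n T - a ^ 2)
        ≤ treeProb π n T * (3 / 4 * Sp lam p2T n T) :=
      mul_le_mul_of_nonneg_left (by nlinarith [sq_nonneg (advTree 3 lam n T - a)]) (hP0 T)
    calc _ = treeProb π n T * (2 * a * advTree 3 lam n T - a ^ 2) := by ring
      _ ≤ _ := h5
      _ = _ := by ring

/-- **Nonreconstruction on Galton-Watson trees** from the recursion on a fixed tree. -/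
theorem tendsto_of_rec (hπ0 : ∀ k, 0 ≤ π k) (hπ : HasSum π 1)
    (hmean : HasSum (fun k : ℕ => (k : ℝ) * π k) d) (hπ2 : 0 < π 2) (ht : 0 < t)
    (hψ0 : ∀ c, InSx 1 c → 0 ≤ ψ c) (hge : ∀ c, InSx 1 c → p2T c ≤ ψ c)
    (hbd : ∀ c, InSx 1 c → ψ c ≤ C) (h0 : 0 ≤ lam) (h1 : lam ≤ 1) (hd : d * lam ^ 2 ≤ 1)
    (hS1 : ∀ (n k : ℕ) (T : Fin k → Tr n),
      Sp lam ψ (n + 1) ⟨k, T⟩ ≤ lam ^ 2 * ∑ c, Sp lam ψ n (T c))
    (hS2 : ∀ (n : ℕ) (T : Fin 2 → Tr n), Sp lam ψ (n + 1) ⟨2, T⟩ ≤ lam ^ 2 * ∑ c, Sp lam ψ n (T c)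
      - t * lam ^ 4 * (Sp lam p2T n (T 0) * Sp lam p2T n (T 1))) :
    Tendsto (advantage π 3 lam) atTop (𝓝 0) := by
  have hp2bd : ∀ c, InSx 1 c → p2T c ≤ C := fun c hc => (hge c hc).trans (hbd c hc)
  have hp20 : ∀ c, InSx 1 c → 0 ≤ p2T c := fun c _ => p2T_nonneg c
  set E : ℕ → ℝ := fun n => ∑' T, treeProb π n T * Sp lam ψ n T with hE
  set A : ℕ → ℝ := fun n => ∑' T, treeProb π n T * Sp lam p2T n T with hA
  have hE0 : ∀ n, 0 ≤ E n := fun n =>
    tsum_nonneg fun T => mul_nonneg (treeProb_nonneg hπ0 n T) (Sp_nonneg h0 h1 hψ0 n T)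
  have hA0 : ∀ n, 0 ≤ A n := fun n =>
    tsum_nonneg fun T => mul_nonneg (treeProb_nonneg hπ0 n T) (Sp_nonneg h0 h1 hp20 n T)
  have hAE : ∀ n, A n ≤ E n := by
    intro n
    refine hasSum_le (fun T => ?_) (summable_terms hπ0 hπ hp20 hp2bd h0 h1 n).hasSum
      (summable_terms hπ0 hπ hψ0 hbd h0 h1 n).hasSum
    apply mul_le_mul_of_nonneg_left _ (treeProb_nonneg hπ0 n T)
    refine Finset.sum_le_sum fun ω _ => ?_
    rcases (M3_nonneg (xT_nn h0 h1 n T ω)).eq_or_lt with h | h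
    · simp [GG, ← h]
    · exact mul_le_mul_of_nonneg_left (hge _ (cen_inSx (xT_nn h0 h1 n T ω) h)) h.le
  have hrec : ∀ n, E (n + 1) ≤ d * lam ^ 2 * E n - π 2 * t * lam ^ 4 * A n ^ 2 := fun n =>
    level_rec_of hπ0 hπ hmean hψ0 hge hbd h0 h1 hS1 hS2 n
  have hAlim : Tendsto A atTop (𝓝 0) := by
    rcases h0.eq_or_lt with hl0 | hlpos
    · -- the trivial channel
      have hz : ∀ n, A (n + 1) = 0 := by
        intro n
        have h3 := hrec n
        rw [← hl0] at h3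
        norm_num at h3
        exact le_antisymm ((hAE _).trans h3) (hA0 _)
      rw [← tendsto_add_atTop_iff_nat 1]
      simp only [hz]
      exact tendsto_const_nhds
    · have hc : 0 < π 2 * t * lam ^ 4 := by positivity
      have hanti : Antitone E := by
        apply antitone_nat_of_succ_le
        intro n
        have h3 := hrec n
        have h4 := mul_le_mul_of_nonneg_right hd (hE0 n)
        have h5 : 0 ≤ π 2 * t * lam ^ 4 * A n ^ 2 := by positivity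
        nlinarith
      have hbdd : BddBelow (Set.range E) := ⟨0, by rintro _ ⟨n, rfl⟩; exact hE0 n⟩
      have hlim := tendsto_atTop_ciInf hanti hbdd
      have hdiff : Tendsto (fun n => E n - E (n + 1)) atTop (𝓝 0) := by
        have := hlim.sub (hlim.comp (tendsto_add_atTop_nat 1))
        simpa using this
      have hsq : Tendsto (fun n => A n ^ 2) atTop (𝓝 0) := by
        have h3 : Tendsto (fun n => (π 2 * t * lam ^ 4)⁻¹ * (E n - E (n + 1))) atTop (𝓝 0) := by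
          have := hdiff.const_mul ((π 2 * t * lam ^ 4)⁻¹)
          rwa [mul_zero] at this
        refine squeeze_zero (fun n => sq_nonneg _) (fun n => ?_) h3
        have h4 := hrec n
        have h5 := mul_le_mul_of_nonneg_right hd (hE0 n)
        have h6 : π 2 * t * lam ^ 4 * A n ^ 2 ≤ E n - E (n + 1) := by nlinarith
        rw [le_inv_mul_iff₀ hc]
        exact h6
      have h3 := hsq.sqrt
      simp only [Real.sqrt_zero] at h3
      have e : (fun n => Real.sqrt (A n ^ 2)) = A := by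
        funext n
        exact Real.sqrt_sq (hA0 n)
      rwa [e] at h3
  have hlim2 : Tendsto (fun n => Real.sqrt (3 / 4 * A n)) atTop (𝓝 0) := by
    simpa using (hAlim.const_mul (3 / 4)).sqrt
  refine squeeze_zero (fun n => ?_) (fun n => ?_) hlim2
  · exact tsum_nonneg fun T => mul_nonneg (treeProb_nonneg hπ0 n T) (advTree_nonneg h0 h1 n T)
  · exact Real.le_sqrt_of_sq_le (advantage_bounds hπ0 hπ h0 h1 n).2

/-- **Nonreconstruction on Galton-Watson trees** from the stationary merge inequality. -/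
theorem tendsto_advantage (hπ0 : ∀ k, 0 ≤ π k) (hπ : HasSum π 1)
    (hmean : HasSum (fun k : ℕ => (k : ℝ) * π k) d) (hπ2 : 0 < π 2)
    (hM : Merge ψ ψ Y 1 lb t) (ht : 0 < t) (hlb0 : 0 ≤ lb) (hlb : lb < 1)
    (hdom : ∀ c, ∀ s, 0 ≤ s → s ≤ lb → Y (scale s c) ≤ s ^ 2 * ψ c)
    (hge : ∀ c, p2T c ≤ ψ c) (hzero : ψ ⟨0, 0, 0⟩ = 0)
    (hinv : ∀ b : Tp, ψ b.r1 = ψ b ∧ ψ b.r2 = ψ b ∧ ψ b.r3 = ψ b ∧ ψ b.r4 = ψ b ∧ ψ b.r5 = ψ b)
    (hbd : ∀ c, InSx 1 c → ψ c ≤ C)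
    (h0 : 0 ≤ lam) (hl : lam ≤ lb) (hd : d * lam ^ 2 ≤ 1) :
    Tendsto (advantage π 3 lam) atTop (𝓝 0) := by
  have h1 : lam ≤ 1 := by linarith
  exact tendsto_of_rec hπ0 hπ hmean hπ2 ht (fun c _ => (p2T_nonneg c).trans (hge c))
    (fun c _ => hge c) hbd h0 h1 hd (Sp_succ_le hM ht.le hlb0 hlb hdom hzero h0 hl)
    (Sp_two_le hM hlb0 hlb hdom (psi_le_Y hM hzero hinv) h0 hl)

end final

end Vale.Agent.Lib.P154GW
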