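import Vale.Agent.Lib.P154GW.Msg

/-!
# The merge inequality for a finite number of independent children
-/

open Finset

namespace Vale.Agent.Lib.P154GW

open Vale.Agent.Lib.P154

section

variable {k : ℕ}

lemma mergeAll_nn {Ω : Fin k → Type} {y : ∀ c, Ω c → W3} (hy : ∀ c ξ, NN (y c ξ)) (ω : ∀ c, Ω c) :
    NN (mergeAll y ω) := by
  intro i
  apply mul_nonneg (by norm_num)
  exact Finset.prod_nonneg fun c _ => mul_nonneg (by norm_num) (hy c (ω c) i)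

lemma mergeAll_coord {Ω : Fin k → Type} [∀ c, Fintype (Ω c)] {y : ∀ c, Ω c → W3}
    (hy : ∀ c, Fam (y c)) (i : Fin 3) :
    ∑ ω : (∀ c, Ω c), mergeAll y ω i = 1 / 3 := by
  simp only [mergeAll]
  rw [← Finset.mul_sum]
  have := (Finset.prod_univ_sum (fun c : Fin k => (Finset.univ : Finset (Ω c)))
    (fun c x => 3 * y c x i)).symm
  rw [Fintype.piFinset_univ] at this
  rw [this]
  have h2 : ∀ c : Fin k, ∑ x, 3 * y c x i = 1 := by
    intro c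
    rw [← Finset.mul_sum, (hy c).coord i]
    norm_num
  simp [h2]

lemma mergeAll_mass {Ω : Fin k → Type} [∀ c, Fintype (Ω c)] {y : ∀ c, Ω c → W3}
    (hy : ∀ c, Fam (y c)) :
    ∑ ω : (∀ c, Ω c), M3 (mergeAll y ω) = 1 := by
  simp only [M3, Finset.sum_add_distrib, mergeAll_coord hy]
  norm_num

end

lemma sum_snoc {k : ℕ} {Ω : Fin (k + 1) → Type} [∀ c, Fintype (Ω c)] (F : (∀ c, Ω c) → ℝ) :
    ∑ ω : (∀ c, Ω c), F ω =
      ∑ η : (∀ c : Fin k, Ω c.castSucc), ∑ a : Ω (Fin.last k), F (Fin.snoc (α := Ω) η a) := by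
  rw [← Equiv.sum_comp (Fin.snocEquiv Ω) F, Fintype.sum_prod_type, Finset.sum_comm]
  rfl

variable {ψ Y : Tp → ℝ} {lb t : ℝ}

lemma GG_nonneg_of {χ : Tp → ℝ} (hχ : ∀ c, 0 ≤ χ c) {x : W3} (hx : NN x) : 0 ≤ GG χ x :=
  mul_nonneg (M3_nonneg hx) (hχ _)

/-- The merge inequality for `k` children, without margin. -/
theorem merge_all (hM : Merge ψ ψ Y 1 lb t) (ht : 0 ≤ t) (hlb0 : 0 ≤ lb) (hlb : lb < 1)
    (hzero : ψ ⟨0, 0, 0⟩ = 0) :
    ∀ (k : ℕ) (Ω : Fin k → Type) [∀ c, Fintype (Ω c)] (y : ∀ c, Ω c → W3),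
      (∀ c, Fam (y c)) → (∀ c ξ, 0 < M3 (y c ξ) → InSx lb (cen (y c ξ))) →
      ∑ ω : (∀ c, Ω c), GG ψ (mergeAll y ω) ≤ ∑ c, ∑ ξ, GG Y (y c ξ) := by
  intro k
  induction k with
  | zero =>
    intro Ω _ y _ _
    simp only [Finset.univ_eq_empty, Finset.sum_empty, Fintype.sum_unique]
    simp only [GG, mergeAll, M3, cen, Fin.prod_univ_zero, mul_one]
    norm_num
    exact le_of_eq hzero
  | succ k ih =>
    intro Ω _ y hy hyd
    rw [sum_snoc]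
    have e : ∀ (η : ∀ c : Fin k, Ω c.castSucc) (a : Ω (Fin.last k)),
        mergeAll y (Fin.snoc (α := Ω) η a)
          = mrg (mergeAll (Ω := fun c : Fin k => Ω c.castSucc) (fun c => y c.castSucc) η)
              (y (Fin.last k) a) := by
      intro η a
      rw [mergeAll_succ]
      simp only [Fin.snoc_castSucc, Fin.snoc_last]
    simp only [e]
    have hnn : ∀ (c : Fin k) ξ, NN (y c.castSucc ξ) := fun c ξ => (hy c.castSucc).nn ξ
    have key := merge_fam (A := ∀ c : Fin k, Ω c.castSucc)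
      (x := mergeAll (Ω := fun c : Fin k => Ω c.castSucc) (fun c : Fin k => y c.castSucc))
      (hy (Fin.last k)) (fun η => mergeAll_nn hnn η) hM zero_le_one le_rfl hlb0 hlb
      (fun η h => cen_inSx (mergeAll_nn hnn η) h) (hyd (Fin.last k))
    have hih := ih (fun c : Fin k => Ω c.castSucc) (fun c : Fin k => y c.castSucc)
      (fun c : Fin k => hy c.castSucc) (fun (c : Fin k) => hyd c.castSucc)
    have hmass := mergeAll_mass (Ω := fun c : Fin k => Ω c.castSucc) (y := fun c : Fin k => y c.castSucc)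
      (fun c : Fin k => hy c.castSucc)
    rw [hmass, one_mul] at key
    have hm : 0 ≤ t * ((∑ η : (∀ c : Fin k, Ω c.castSucc),
        GG p2T (mergeAll (Ω := fun c : Fin k => Ω c.castSucc) (fun c => y c.castSucc) η)) *
        ∑ ξ, GG p2T (y (Fin.last k) ξ)) := by
      apply mul_nonneg ht
      apply mul_nonneg
      · exact Finset.sum_nonneg fun η _ => GG_nonneg_of p2T_nonneg (mergeAll_nn hnn η)
      · exact Finset.sum_nonneg fun ξ _ => GG_nonneg_of p2T_nonneg ((hy (Fin.last k)).nn ξ)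
    rw [Fin.sum_univ_castSucc]
    linarith

/-- A potential is below `Y` on the scaled simplex. -/
lemma psi_le_Y (hM : Merge ψ ψ Y 1 lb t)  (hzero : ψ ⟨0, 0, 0⟩ = 0)
    (hinv : ∀ b : Tp, ψ b.r1 = ψ b ∧ ψ b.r2 = ψ b ∧ ψ b.r3 = ψ b ∧ ψ b.r4 = ψ b ∧ ψ b.r5 = ψ b)
    (b : Tp) (hb : InSx lb b) : ψ b ≤ Y b := by
  have h0 : InSx 1 (⟨0, 0, 0⟩ : Tp) :=
    ⟨by simp [Tp.ZS], by norm_num, by norm_num, by norm_num⟩
  have key := hM ⟨0, 0, 0⟩ b h0 hb
  have hs : ∀ b' : Tp, b'.ZS → sF ⟨0, 0, 0⟩ b' = 0 ∧ wF ⟨0, 0, 0⟩ b' = b' := by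
    intro b' hb'
    have e : sF ⟨0, 0, 0⟩ b' = 0 := by simp [sF]
    refine ⟨e, ?_⟩
    simp only [wF, cF, e]
    ext <;> simp
  have hz := hb.zs
  simp only [avg6] at key
  rw [(hs b hz).1, (hs b hz).2, (hs _ (ZS_r1 hz)).1, (hs _ (ZS_r1 hz)).2, (hs _ (ZS_r2 hz)).1,
    (hs _ (ZS_r2 hz)).2, (hs _ (ZS_r3 hz)).1, (hs _ (ZS_r3 hz)).2, (hs _ (ZS_r4 hz)).1,
    (hs _ (ZS_r4 hz)).2, (hs _ (ZS_r5 hz)).1, (hs _ (ZS_r5 hz)).2] at key
  obtain ⟨i1, i2, i3, i4, i5⟩ := hinv b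
  rw [i1, i2, i3, i4, i5, hzero] at key
  have hp : p2T (⟨0, 0, 0⟩ : Tp) = 0 := by simp [p2T]
  rw [hp] at key
  simp only [mul_zero, zero_mul, sub_zero, zero_add] at key
  linarith

/-- The merge inequality for two children, with margin. -/
theorem merge_two (hM : Merge ψ ψ Y 1 lb t) (hlb0 : 0 ≤ lb) (hlb : lb < 1)
    (hle : ∀ b, InSx lb b → ψ b ≤ Y b)
    (Ω : Fin 2 → Type) [∀ c, Fintype (Ω c)] (y : ∀ c, Ω c → W3)
    (hy : ∀ c, Fam (y c)) (hyd : ∀ c ξ, 0 < M3 (y c ξ) → InSx lb (cen (y c ξ))) :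
    ∑ ω : (∀ c, Ω c), GG ψ (mergeAll y ω) ≤ ∑ c, ∑ ξ, GG Y (y c ξ)
      - t * ((∑ ξ, GG p2T (y 0 ξ)) * ∑ ξ, GG p2T (y 1 ξ)) := by
  have e : ∑ ω : (∀ c, Ω c), GG ψ (mergeAll y ω)
      = ∑ a, ∑ b, GG ψ (mrg (y 0 a) (y 1 b)) := by
    rw [← Equiv.sum_comp (piFinTwoEquiv Ω).symm, Fintype.sum_prod_type]
    apply Finset.sum_congr rfl
    intro a _
    apply Finset.sum_congr rfl
    intro b _
    congr 1
    funext i
    simp only [mergeAll, mrg, Fin.prod_univ_two, piFinTwoEquiv]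
    simp
    ring
  rw [e]
  have key := merge_fam (A := Ω 0) (x := y 0) (hy 1) (hy 0).nn hM zero_le_one le_rfl hlb0 hlb
    (fun η h => cen_inSx ((hy 0).nn η) h) (hyd 1)
  rw [(hy 0).mass, one_mul] at key
  have h2 : ∑ η, GG ψ (y 0 η) ≤ ∑ η, GG Y (y 0 η) := by
    apply Finset.sum_le_sum
    intro η _
    rcases (M3_nonneg ((hy 0).nn η)).eq_or_lt with h0 | hpos
    · simp [GG, ← h0]
    · exact mul_le_mul_of_nonneg_left (hle _ (hyd 0 η hpos)) hpos.le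
  rw [Fin.sum_univ_two]
  linarith

end Vale.Agent.Lib.P154GW
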