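import Vale.Agent.Lib.P154GW.Defs
import Vale.Agent.Lib.P154.Pots

/-!
# Messages on a fixed tree, for three colours
-/

open Finset

namespace Vale.Agent.Lib.P154GW

open Vale.Agent.Lib.P154

variable {lam : ℝ}

lemma chan_nonneg (h0 : 0 ≤ lam) (h1 : lam ≤ 1) (i j : Fin 3) : 0 ≤ chan 3 lam i j := by
  simp only [chan]
  have : 0 ≤ (1 - lam) / ((3 : ℕ) : ℝ) := by
    apply div_nonneg <;> [linarith; positivity]
  split_ifs <;> nlinarith

lemma chan_sum (lam : ℝ) (i : Fin 3) : ∑ j, chan 3 lam i j = 1 := by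
  fin_cases i <;> simp [chan, Fin.sum_univ_three] <;> ring

lemma chan_perm (σ : Equiv.Perm (Fin 3)) (lam : ℝ) (i j : Fin 3) :
    chan 3 lam (σ i) (σ j) = chan 3 lam i j := by
  simp only [chan, σ.injective.eq_iff]

lemma sum_leaves_succ {M : Type*} [AddCommMonoid M] (n : ℕ) (k : ℕ) (T : Fin k → Tr n)
    (F : Leaves 3 (n + 1) ⟨k, T⟩ → M) :
    (∑ ω : Leaves 3 (n + 1) ⟨k, T⟩, F ω) = ∑ ω : (c : Fin k) → Leaves 3 n (T c), F ω := rfl

/-- The likelihood of a subtree seen from the parent of its root. -/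
noncomputable def childLik (lam : ℝ) (n : ℕ) (T : Tr n) (ξ : Leaves 3 n T) (i : Fin 3) : ℝ :=
  ∑ j, chan 3 lam i j * lik 3 lam n T ξ j

lemma lik_succ (n k : ℕ) (T : Fin k → Tr n) (ω : (c : Fin k) → Leaves 3 n (T c)) (i : Fin 3) :
    lik 3 lam (n + 1) ⟨k, T⟩ ω i = ∏ c : Fin k, childLik lam n (T c) (ω c) i := rfl

lemma lik_nonneg (h0 : 0 ≤ lam) (h1 : lam ≤ 1) :
    ∀ (n : ℕ) (T : Tr n) (ω : Leaves 3 n T) (i : Fin 3), 0 ≤ lik 3 lam n T ω i := by
  intro n
  induction n with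
  | zero =>
    intro T ω i
    show 0 ≤ (if i = (show Fin 3 from ω) then (1 : ℝ) else 0)
    split_ifs <;> norm_num
  | succ n ih =>
    rintro ⟨k, T⟩ ω i
    rw [lik_succ]
    exact Finset.prod_nonneg fun c _ => Finset.sum_nonneg fun j _ =>
      mul_nonneg (chan_nonneg h0 h1 i j) (ih _ _ _)

lemma lik_total : ∀ (n : ℕ) (T : Tr n) (i : Fin 3), ∑ ω : Leaves 3 n T, lik 3 lam n T ω i = 1 := by
  intro n
  induction n with
  | zero =>
    intro T i
    show ∑ τ : Fin 3, (if i = τ then (1 : ℝ) else 0) = 1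
    simp
  | succ n ih =>
    rintro ⟨k, T⟩ i
    rw [sum_leaves_succ]
    simp only [lik_succ]
    have := (Finset.prod_univ_sum (fun c : Fin k => (Finset.univ : Finset (Leaves 3 n (T c))))
      (fun c x => childLik lam n (T c) x i)).symm
    rw [Fintype.piFinset_univ] at this
    rw [this]
    apply Finset.prod_eq_one
    intro c _
    unfold childLik
    rw [Finset.sum_comm]
    simp only [← Finset.mul_sum, ih, mul_one]
    exact chan_sum lam i

/-- The colour action on configurations. -/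
def act (σ : Equiv.Perm (Fin 3)) : (n : ℕ) → (T : Tr n) → Leaves 3 n T ≃ Leaves 3 n T
  | 0, _ => σ
  | n + 1, T => Equiv.piCongrRight (fun c => act σ n ((show Σ k : ℕ, (Fin k → Tr n) from T).2 c))

lemma lik_act (σ : Equiv.Perm (Fin 3)) :
    ∀ (n : ℕ) (T : Tr n) (ω : Leaves 3 n T) (i : Fin 3),
      lik 3 lam n T (act σ n T ω) (σ i) = lik 3 lam n T ω i := by
  intro n
  induction n with
  | zero =>
    intro T ω i
    have key : ∀ (τ : Fin 3) (i : Fin 3),
        (if σ i = σ τ then (1 : ℝ) else 0) = if i = τ then 1 else 0 := by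
      intro τ i; simp
    exact key ω i
  | succ n ih =>
    rintro ⟨k, T⟩ ω i
    show (∏ c : Fin k, childLik lam n (T c) (act σ n (T c) (ω c)) (σ i))
      = ∏ c : Fin k, childLik lam n (T c) (ω c) i
    apply Finset.prod_congr rfl
    intro c _
    unfold childLik
    rw [← Equiv.sum_comp σ]
    apply Finset.sum_congr rfl
    intro j _
    rw [chan_perm, ih]

/-- The unnormalised message of a configuration at the root. -/
noncomputable def xT (lam : ℝ) (n : ℕ) (T : Tr n) (ω : Leaves 3 n T) : W3 :=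
  fun i => (1 / 3) * lik 3 lam n T ω i

/-- The message seen from the parent of the root. -/
noncomputable def yT (lam : ℝ) (n : ℕ) (T : Tr n) (ω : Leaves 3 n T) : W3 :=
  fun i => (1 / 3) * childLik lam n T ω i

lemma xT_nn (h0 : 0 ≤ lam) (h1 : lam ≤ 1) (n : ℕ) (T : Tr n) (ω : Leaves 3 n T) :
    NN (xT lam n T ω) := fun i => mul_nonneg (by norm_num) (lik_nonneg h0 h1 n T ω i)

lemma yT_nn (h0 : 0 ≤ lam) (h1 : lam ≤ 1) (n : ℕ) (T : Tr n) (ω : Leaves 3 n T) :
    NN (yT lam n T ω) := fun i =>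
  mul_nonneg (by norm_num) (Finset.sum_nonneg (fun j _ =>
    mul_nonneg (chan_nonneg h0 h1 i j) (lik_nonneg h0 h1 n T ω j)))

lemma yT_eq (n : ℕ) (T : Tr n) (ω : Leaves 3 n T) (i : Fin 3) :
    yT lam n T ω i = lam * xT lam n T ω i + (1 - lam) / 3 * M3 (xT lam n T ω) := by
  simp only [yT, xT, childLik, M3, chan, Fin.sum_univ_three]
  fin_cases i <;> simp <;> ring

lemma M3_yT (n : ℕ) (T : Tr n) (ω : Leaves 3 n T) : M3 (yT lam n T ω) = M3 (xT lam n T ω) := by
  have e : M3 (yT lam n T ω) = yT lam n T ω 0 + yT lam n T ω 1 + yT lam n T ω 2 := rfl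
  rw [e, yT_eq, yT_eq, yT_eq]
  have e2 : M3 (xT lam n T ω) = xT lam n T ω 0 + xT lam n T ω 1 + xT lam n T ω 2 := rfl
  rw [e2]
  ring

lemma cen_yT (n : ℕ) (T : Tr n) (ω : Leaves 3 n T) (h : 0 < M3 (xT lam n T ω)) :
    cen (yT lam n T ω) = scale lam (cen (xT lam n T ω)) := by
  have hne := ne_of_gt h
  apply Tp.ext
  · simp only [cen, scale, M3_yT, yT_eq]
    field_simp
    ring
  · simp only [cen, scale, M3_yT, yT_eq]
    field_simp
    ring
  · simp only [cen, scale, M3_yT, yT_eq]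
    field_simp
    ring

lemma sum_xT_mass (n : ℕ) (T : Tr n) : ∑ ω : Leaves 3 n T, M3 (xT lam n T ω) = 1 := by
  simp only [M3, xT, Finset.sum_add_distrib, ← Finset.mul_sum, lik_total]
  norm_num

lemma yT_comp (n : ℕ) (T : Tr n) (σ : Equiv.Perm (Fin 3)) (ω : Leaves 3 n T) :
    yT lam n T ω ∘ σ = yT lam n T (act σ⁻¹ n T ω) := by
  funext i
  simp only [Function.comp, yT, childLik]
  congr 1
  rw [← Equiv.sum_comp σ (fun j => chan 3 lam (σ i) j * lik 3 lam n T ω j)]
  apply Finset.sum_congr rfl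
  intro j _
  have e : σ⁻¹ (σ j) = j := by simp
  have h1 := lik_act (lam := lam) σ⁻¹ n T ω (σ j)
  rw [e] at h1
  rw [h1, chan_perm]

lemma yT_fam (h0 : 0 ≤ lam) (h1 : lam ≤ 1) (n : ℕ) (T : Tr n) : Fam (yT lam n T) where
  nn := yT_nn h0 h1 n T
  sym := by
    intro σ F
    simp only [yT_comp]
    exact Equiv.sum_comp (act σ⁻¹ n T) (fun ξ => F (yT lam n T ξ))
  mass := by
    simp only [M3_yT]
    exact sum_xT_mass n T

/-- The domain of the message seen from the parent. -/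
lemma yT_dom (h0 : 0 ≤ lam) (h1 : lam ≤ 1) (n : ℕ) (T : Tr n) (ω : Leaves 3 n T)
    (h : 0 < M3 (yT lam n T ω)) : InSx lam (cen (yT lam n T ω)) := by
  rw [M3_yT] at h
  rw [cen_yT n T ω h]
  exact InSx.scale (cen_inSx (xT_nn h0 h1 n T ω) h) h0

/-- The merged message of children. -/
noncomputable def mergeAll {k : ℕ} {Ω : Fin k → Type} (y : ∀ c, Ω c → W3) (ω : ∀ c, Ω c) : W3 :=
  fun i => (1 / 3) * ∏ c, (3 * y c (ω c) i)

lemma xT_succ (n k : ℕ) (T : Fin k → Tr n) (ω : (c : Fin k) → Leaves 3 n (T c)) :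
    xT lam (n + 1) ⟨k, T⟩ ω = mergeAll (fun c => yT lam n (T c)) ω := by
  funext i
  simp only [xT, mergeAll, yT]
  rw [lik_succ]
  congr 1
  apply Finset.prod_congr rfl
  intro c _
  ring

lemma mergeAll_succ {k : ℕ} {Ω : Fin (k + 1) → Type} (y : ∀ c, Ω c → W3) (ω : ∀ c, Ω c) :
    mergeAll y ω = mrg (mergeAll (Ω := fun c : Fin k => Ω c.castSucc) (fun c => y c.castSucc)
      (fun c => ω c.castSucc)) (y (Fin.last k) (ω (Fin.last k))) := by
  funext i
  simp only [mergeAll, mrg]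
  rw [Fin.prod_univ_castSucc]
  ring

end Vale.Agent.Lib.P154GW
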